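import Mathlib

/-!
Real-arithmetic lemmas for the P064 connected-graphs counting argument
(labour for helper8).
-/

namespace Vale.Agent.Helper18.KKArith

theorem arith_sum (e v n M : Nat) (N q : Real) (hq : 0 <= q) (hN : 0 <= N) :
    (Finset.sum (Finset.range M) (fun s => (2:Real) ^ (e + s) * ((2:Real) ^ (v + s) *
      (3 * N * q ^ e * (((v:Real) * n * q) ^ s / s.factorial))))) <=
      3 * 2 ^ (e + v) * N * q ^ e * Real.exp (4 * v * n * q) := by
  have hx : (0:Real) <= 4 * v * n * q := by positivity
  have hterm : ∀ s ∈ Finset.range M,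
      (2:Real) ^ (e + s) * ((2:Real) ^ (v + s) *
      (3 * N * q ^ e * (((v:Real) * n * q) ^ s / s.factorial))) =
      3 * 2 ^ (e + v) * N * q ^ e * ((4 * v * n * q) ^ s / s.factorial) := by
    intro s _
    have h4 : (4 * (v:Real) * n * q) ^ s = (2:Real) ^ s * (2:Real) ^ s * ((v:Real) * n * q) ^ s := by
      rw [← mul_pow, ← mul_pow]
      congr 1
      ring
    rw [h4]
    simp only [pow_add]
    ring
  rw [Finset.sum_congr rfl hterm, ← Finset.mul_sum]
  have hc : (0:Real) <= 3 * 2 ^ (e + v) * N * q ^ e := by positivity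
  exact mul_le_mul_of_nonneg_left (Real.sum_le_exp_of_nonneg hx M) hc

theorem arith_final (e v n : Nat) (q : Real) (hq : 0 <= q) (he : 1 <= e) (hv : v <= e + 1) :
    3 * (2:Real) ^ (e + v) * q ^ e * Real.exp (4 * v * n * q) <=
      (24 * Real.exp (8 * n * q) * q) ^ e := by
  -- constants
  have h1 : (3:Real) * 2 ^ (e + v) <= 24 ^ e := by
    have ha : (2:Real) ^ (e + v) <= 2 ^ (e + (e + 1)) :=
      pow_le_pow_right₀ (by norm_num) (by omega)
    have hb : (2:Real) ^ (e + (e + 1)) = 2 * 4 ^ e := by
      have : (4:Real) = 2 * 2 := by norm_num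
      rw [this, mul_pow, pow_add, pow_add]
      ring
    have hc : (6:Real) <= 6 ^ e := by
      calc (6:Real) = 6 ^ 1 := by norm_num
        _ <= 6 ^ e := pow_le_pow_right₀ (by norm_num) he
    have hd : (24:Real) ^ e = 6 ^ e * 4 ^ e := by
      rw [← mul_pow]; norm_num
    have h4pos : (0:Real) <= 4 ^ e := by positivity
    calc (3:Real) * 2 ^ (e + v) <= 3 * (2 * 4 ^ e) := by
          rw [← hb]; exact mul_le_mul_of_nonneg_left ha (by norm_num)
      _ = 6 * 4 ^ e := by ring
      _ <= 6 ^ e * 4 ^ e := mul_le_mul_of_nonneg_right hc h4pos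
      _ = 24 ^ e := hd.symm
  -- exponentials
  have h2 : Real.exp (4 * v * n * q) <= Real.exp (8 * n * q) ^ e := by
    rw [← Real.exp_nat_mul]
    apply Real.exp_le_exp.mpr
    have hnq : (0:Real) <= n * q := by positivity
    have hve : (v:Real) <= e + 1 := by exact_mod_cast hv
    have he1 : (1:Real) <= e := by exact_mod_cast he
    have : (4:Real) * v <= 8 * e := by linarith
    calc (4:Real) * v * n * q = (4 * v) * (n * q) := by ring
      _ <= (8 * e) * (n * q) := mul_le_mul_of_nonneg_right this hnq
      _ = e * (8 * n * q) := by ring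
  have hqe : (0:Real) <= q ^ e := by positivity
  have hexp : (0:Real) <= Real.exp (4 * v * n * q) := (Real.exp_pos _).le
  have h24 : (0:Real) <= 24 ^ e := by positivity
  calc 3 * (2:Real) ^ (e + v) * q ^ e * Real.exp (4 * v * n * q)
      = (3 * (2:Real) ^ (e + v)) * (q ^ e * Real.exp (4 * v * n * q)) := by ring
    _ <= 24 ^ e * (q ^ e * Real.exp (4 * v * n * q)) :=
        mul_le_mul_of_nonneg_right h1 (mul_nonneg hqe hexp)
    _ <= 24 ^ e * (q ^ e * Real.exp (8 * n * q) ^ e) :=
        mul_le_mul_of_nonneg_left (mul_le_mul_of_nonneg_left h2 hqe) h24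
    _ = (24 * Real.exp (8 * n * q) * q) ^ e := by
        rw [mul_pow, mul_pow]; ring

/-- Natural-number core: `n ^ v * v ! ≤ v ^ v * n.descFactorial v` for `v ≤ n`. -/
theorem pow_mul_factorial_le (n v : Nat) (hv : v <= n) :
    n ^ v * v.factorial <= v ^ v * n.descFactorial v := by
  have h1 : v.factorial = ∏ i ∈ Finset.range v, (v - i) := by
    rw [← Nat.descFactorial_self, Nat.descFactorial_eq_prod_range]
  have h2 : n.descFactorial v = ∏ i ∈ Finset.range v, (n - i) :=
    Nat.descFactorial_eq_prod_range n v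
  have h3 : n ^ v = ∏ _i ∈ Finset.range v, n := by
    rw [Finset.prod_const, Finset.card_range]
  have h4 : v ^ v = ∏ _i ∈ Finset.range v, v := by
    rw [Finset.prod_const, Finset.card_range]
  rw [h1, h2, h3, h4, ← Finset.prod_mul_distrib, ← Finset.prod_mul_distrib]
  apply Finset.prod_le_prod'
  intro i hi
  have hiv : i < v := Finset.mem_range.mp hi
  -- n * (v - i) ≤ v * (n - i)
  obtain ⟨a, rfl⟩ : ∃ a, v = i + a := ⟨v - i, by omega⟩
  obtain ⟨b, rfl⟩ : ∃ b, n = i + a + b := ⟨n - (i + a), by omega⟩
  have e1 : i + a - i = a := by omega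
  have e2 : i + a + b - i = a + b := by omega
  rw [e1, e2]
  nlinarith [Nat.zero_le (i * b), Nat.zero_le a, Nat.zero_le b, Nat.zero_le i]

theorem pow_le_exp_descFactorial (n v : Nat) (hv : v <= n) :
    (n:Real) ^ v <= Real.exp v * (n.descFactorial v : Real) := by
  have hnat := pow_mul_factorial_le n v hv
  have hreal : (n:Real) ^ v * (v.factorial : Real) <= (v:Real) ^ v * (n.descFactorial v : Real) := by
    exact_mod_cast hnat
  have hfpos : (0:Real) < (v.factorial : Real) := by exact_mod_cast Nat.factorial_pos v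
  have hexp : (v:Real) ^ v / (v.factorial : Real) <= Real.exp v :=
    Real.pow_div_factorial_le_exp (v:Real) (Nat.cast_nonneg v) v
  have hvv : (v:Real) ^ v <= Real.exp v * (v.factorial : Real) := by
    rwa [div_le_iff₀ hfpos] at hexp
  have hd : (0:Real) <= (n.descFactorial v : Real) := Nat.cast_nonneg _
  have key : (n:Real) ^ v * (v.factorial : Real) <=
      (Real.exp v * (n.descFactorial v : Real)) * (v.factorial : Real) := by
    calc (n:Real) ^ v * (v.factorial : Real) <= (v:Real) ^ v * (n.descFactorial v : Real) := hreal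
      _ <= (Real.exp v * (v.factorial : Real)) * (n.descFactorial v : Real) :=
          mul_le_mul_of_nonneg_right hvv hd
      _ = (Real.exp v * (n.descFactorial v : Real)) * (v.factorial : Real) := by ring
  exact le_of_mul_le_mul_right key hfpos

end Vale.Agent.Helper18.KKArith
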